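import Mathlib

open IsLocalRing Filter Topology

namespace Vale.Agent.P202

theorem sq_eq_mul_of_ind {S : Type*} [CommRing S] [IsLocalRing S] {ι : Type*} [Fintype ι]
    (Q : Ideal S) (g : ι → S) (hg : Ideal.span (Set.range g) = Q)
    (hind : ∀ c : ι → S, ∑ i, c i * g i = 0 → ∀ i, c i ∈ Q)
    (hQ : Q ≤ maximalIdeal S)
    (h2 : maximalIdeal S ^ 2 ≤ Q)
    (hv : ∀ y : S, maximalIdeal S ≠ Q ⊔ Ideal.span {y}) :
    maximalIdeal S ^ 2 = Q * maximalIdeal S := by
  apply le_antisymm
  · rw [pow_two, Ideal.mul_le]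
    intro y hy y' hy'
    have hyy : y * y' ∈ Q := h2 (by rw [pow_two]; exact Ideal.mul_mem_mul hy hy')
    rw [← hg, Ideal.mem_span_range_iff_exists_fun] at hyy
    obtain ⟨s, hs⟩ := hyy
    have hsn : ∀ i, s i ∈ maximalIdeal S := by
      intro i0
      by_contra hi0
      have hu : IsUnit (s i0) := by
        by_contra hnu
        exact hi0 ((mem_maximalIdeal _).2 hnu)
      apply hv y
      apply le_antisymm
      · intro w hw
        have hwy : w * y' ∈ Q := h2 (by rw [pow_two]; exact Ideal.mul_mem_mul hw hy')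
        rw [← hg, Ideal.mem_span_range_iff_exists_fun] at hwy
        obtain ⟨s', hs'⟩ := hwy
        have hc := hind (fun i => w * s i - y * s' i) (by
          have : ∑ i, (w * s i - y * s' i) * g i
              = w * ∑ i, s i * g i - y * ∑ i, s' i * g i := by
            rw [Finset.mul_sum, Finset.mul_sum, ← Finset.sum_sub_distrib]
            apply Finset.sum_congr rfl
            intro i _
            ring
          rw [this, hs, hs']
          ring) i0
        obtain ⟨u, hu'⟩ := hu
        have hw' : w = ↑u⁻¹ * ((w * s i0 - y * s' i0) + y * s' i0) := by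
          rw [← hu']
          have : (↑u⁻¹ : S) * ↑u = 1 := by simp
          calc w = w * (↑u⁻¹ * ↑u) := by rw [this, mul_one]
            _ = _ := by ring
        rw [hw']
        apply Ideal.mul_mem_left
        apply Ideal.add_mem
        · exact Ideal.mem_sup_left hc
        · apply Ideal.mem_sup_right
          apply Ideal.mul_mem_right
          exact Ideal.mem_span_singleton_self y
      · apply sup_le hQ
        rw [Ideal.span_singleton_le_iff_mem]
        exact hy
    rw [← hs]
    refine Ideal.sum_mem _ (fun i _ => ?_)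
    rw [mul_comm (s i)]
    refine Ideal.mul_mem_mul ?_ (hsn i)
    rw [← hg]
    exact Ideal.subset_span ⟨i, rfl⟩
  · rw [pow_two]
    exact Ideal.mul_mono_left hQ

theorem exists_min_gens (R : Type*) [CommRing R] [IsLocalRing R] [IsNoetherianRing R] :
    ∃ s : Finset R, Ideal.span (s : Set R) = maximalIdeal R ∧
      ∀ a : s → R, ∑ i, a i * (i : R) = 0 → ∀ i, a i ∈ maximalIdeal R := by
  classical
  obtain ⟨s, hcard, hspan⟩ :=
    (IsNoetherian.noetherian (maximalIdeal R)).exists_span_finset_card_eq_spanFinrank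
  refine ⟨s, hspan, ?_⟩
  intro a ha i0
  by_contra hi0
  have hu : IsUnit (a i0) := by
    by_contra hnu
    exact hi0 ((mem_maximalIdeal _).2 hnu)
  obtain ⟨u, hu'⟩ := hu
  have h1 : a i0 * (i0 : R) ∈ Ideal.span ((s.erase (i0 : R) : Finset R) : Set R) := by
    have h2 : a i0 * (i0 : R) = - ∑ i ∈ Finset.univ.erase i0, a i * (i : R) := by
      rw [← Finset.add_sum_erase Finset.univ _ (Finset.mem_univ i0)] at ha
      exact eq_neg_of_add_eq_zero_left ha
    rw [h2]
    apply Ideal.neg_mem_iff _ |>.2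
    refine Ideal.sum_mem _ (fun i hi => ?_)
    apply Ideal.mul_mem_left
    apply Ideal.subset_span
    simp only [Finset.coe_erase, Set.mem_sdiff, Finset.mem_coe, Set.mem_singleton_iff]
    refine ⟨i.2, ?_⟩
    intro h
    exact (Finset.ne_of_mem_erase hi) (Subtype.ext h)
  have h3 : (i0 : R) ∈ Ideal.span ((s.erase (i0 : R) : Finset R) : Set R) := by
    have : (i0 : R) = ↑u⁻¹ * (a i0 * (i0 : R)) := by
      rw [← hu', ← mul_assoc]
      simp
    have h7 := Ideal.mul_mem_left _ (↑u⁻¹ : R) h1
    rwa [← this] at h7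
  have h4 : Ideal.span ((s.erase (i0 : R) : Finset R) : Set R) = maximalIdeal R := by
    apply le_antisymm
    · rw [← hspan]
      apply Ideal.span_mono
      simp
    · rw [← hspan]
      change Ideal.span _ ≤ _
      rw [Ideal.span_le]
      intro x hx
      by_cases hx0 : x = (i0 : R)
      · rw [hx0]; exact h3
      · apply Ideal.subset_span
        simp only [Finset.coe_erase, Set.mem_sdiff, Finset.mem_coe, Set.mem_singleton_iff]
        exact ⟨hx, hx0⟩
  have h5 : (maximalIdeal R).spanFinrank ≤ (s.erase (i0 : R)).card := by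
    have := Submodule.spanFinrank_span_le_ncard_of_finite (R := R)
      (s := ((s.erase (i0 : R) : Finset R) : Set R)) (Finset.finite_toSet _)
    rw [Set.ncard_coe_finset] at this
    have h6 : Submodule.span R ((s.erase (i0 : R) : Finset R) : Set R) = maximalIdeal R := h4
    rw [h6] at this
    exact this
  rw [Finset.card_erase_of_mem i0.2, ← hcard] at h5
  have : 0 < s.card := Finset.card_pos.2 ⟨i0, i0.2⟩
  omega

theorem flat_rel {R S : Type*} [CommRing R] [CommRing S] [IsLocalRing R] [Algebra R S]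
    [Module.Flat R S] {ι : Type*} [Fintype ι] (x : ι → R)
    (hmin : ∀ a : ι → R, ∑ i, a i * x i = 0 → ∀ i, a i ∈ maximalIdeal R)
    (t : ι → S) (ht : ∑ i, t i * algebraMap R S (x i) = 0) (i : ι) :
    t i ∈ (maximalIdeal R).map (algebraMap R S) := by
  have h0 : ∑ i, x i • t i = 0 := by
    rw [← ht]
    apply Finset.sum_congr rfl
    intro i _
    rw [Algebra.smul_def, mul_comm]
  obtain ⟨k, a, y, h1, h2⟩ := Module.Flat.isTrivialRelation_of_sum_smul_eq_zero (R := R) (M := S) h0
  rw [h1 i]
  refine Ideal.sum_mem _ (fun j _ => ?_)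
  rw [Algebra.smul_def]
  apply Ideal.mul_mem_right
  apply Ideal.mem_map_of_mem
  apply hmin (fun i => a i j)
  rw [← h2 j]
  apply Finset.sum_congr rfl
  intro i _
  ring

theorem length_quot_ne_top {A : Type*} [CommRing A] [IsLocalRing A] [IsNoetherianRing A]
    (I : Ideal A) (N : ℕ) (h : maximalIdeal A ^ N ≤ I) :
    Module.length A (A ⧸ I) ≠ ⊤ := by
  by_cases hI : I = ⊤
  · subst hI
    rw [Module.length_eq_zero]
    simp
  · have hmin : maximalIdeal A ∈ I.minimalPrimes := by
      refine ⟨⟨inferInstance, le_maximalIdeal hI⟩, ?_⟩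
      rintro q ⟨hq, hIq⟩ _
      exact hq.le_of_pow_le (h.trans hIq)
    have := IsLocalRing.quotient_artinian_of_mem_minimalPrimes_of_isLocalRing I hmin
    rw [Module.length_eq_of_surjective (R := A ⧸ I) (S := A) (M := A ⧸ I)
      Ideal.Quotient.mk_surjective]
    exact Module.length_ne_top

theorem length_quot_le {A : Type*} [CommRing A] {I J : Ideal A} (h : I ≤ J) :
    Module.length A (A ⧸ J) ≤ Module.length A (A ⧸ I) :=
  Module.length_le_of_surjective (Submodule.factor h) (Submodule.factor_surjective h)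

theorem length_quot_map {R S : Type*} [CommRing R] [CommRing S] [IsLocalRing R] [IsLocalRing S]
    [Algebra R S] [Module.Flat R S] [IsLocalHom (algebraMap R S)] (I : Ideal R) :
    Module.length S (S ⧸ I.map (algebraMap R S)) =
      Module.length R (R ⧸ I) * Module.length S (S ⧸ (maximalIdeal R).map (algebraMap R S)) := by
  rw [← IsLocalRing.length_baseChange R S (R ⧸ I)]
  exact (Algebra.TensorProduct.quotIdealMapEquivTensorQuot S I).toLinearEquiv.length_eq

theorem pow_succ_eq {S : Type*} [CommRing S] (n Q : Ideal S) (h : n ^ 2 = Q * n) (N : ℕ) :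
    n ^ (N + 1) = Q ^ N * n := by
  induction N with
  | zero => simp
  | succ k ih =>
    calc n ^ (k + 1 + 1) = n ^ (k + 1) * n := pow_succ _ _
      _ = Q ^ k * (n ^ 2) := by rw [ih, pow_two, mul_assoc]
      _ = Q ^ (k + 1) * n := by rw [h, pow_succ, mul_assoc]

theorem tendsto_shift (f : ℕ → ℝ) (d : ℕ) (e : ℝ)
    (h : Tendsto (fun N : ℕ => f N / (N : ℝ) ^ d) atTop (𝓝 e)) :
    Tendsto (fun N : ℕ => f (N + 1) / (N : ℝ) ^ d) atTop (𝓝 e) := by
  have h1 : Tendsto (fun N : ℕ => f (N + 1) / ((N + 1 : ℕ) : ℝ) ^ d) atTop (𝓝 e) :=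
    h.comp (tendsto_add_atTop_nat 1)
  have h2 : Tendsto (fun N : ℕ => (1 + 1 / (N : ℝ)) ^ d) atTop (𝓝 1) := by
    have h3 : Tendsto (fun N : ℕ => 1 + 1 / (N : ℝ)) atTop (𝓝 (1 + 0)) :=
      tendsto_const_nhds.add tendsto_one_div_atTop_nhds_zero_nat
    have h4 := h3.pow d
    simpa using h4
  have h5 := h1.mul h2
  rw [mul_one] at h5
  refine h5.congr' ?_
  filter_upwards [eventually_ge_atTop 1] with N hN
  have hN' : (N : ℝ) ≠ 0 := by positivity
  have hN1 : ((N + 1 : ℕ) : ℝ) ≠ 0 := by positivity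
  have : (1 + 1 / (N : ℝ)) = ((N + 1 : ℕ) : ℝ) / N := by
    push_cast
    field_simp
  rw [this, div_pow]
  field_simp

theorem mult_eq_of_sandwich (a b : ℕ → ℕ) (c d : ℕ) (eR eS : ℝ)
    (h1 : ∀ N, b N ≤ c * a N) (h2 : ∀ N, c * a N ≤ b (N + 1))
    (hR : Tendsto (fun N : ℕ => (d.factorial : ℝ) * (a N : ℝ) / (N : ℝ) ^ d) atTop (𝓝 eR))
    (hS : Tendsto (fun N : ℕ => (d.factorial : ℝ) * (b N : ℝ) / (N : ℝ) ^ d) atTop (𝓝 eS)) :
    eS = c * eR := by
  apply le_antisymm
  · refine le_of_tendsto_of_tendsto' hS (hR.const_mul (c : ℝ)) (fun N => ?_)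
    have : (b N : ℝ) ≤ c * a N := by exact_mod_cast h1 N
    rw [← mul_div_assoc]
    apply div_le_div_of_nonneg_right _ (by positivity)
    calc (d.factorial : ℝ) * (b N : ℝ) ≤ (d.factorial : ℝ) * (c * a N) := by gcongr
      _ = _ := by ring
  · have hS' := tendsto_shift (fun N => (d.factorial : ℝ) * (b N : ℝ)) d eS hS
    refine le_of_tendsto_of_tendsto' (hR.const_mul (c : ℝ)) hS' (fun N => ?_)
    have : (c : ℝ) * a N ≤ b (N + 1) := by exact_mod_cast h2 N
    rw [← mul_div_assoc]
    apply div_le_div_of_nonneg_right _ (by positivity)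
    calc (c : ℝ) * ((d.factorial : ℝ) * (a N : ℝ)) = (d.factorial : ℝ) * (c * a N) := by ring
      _ ≤ _ := by gcongr

theorem height_map_mk_le {S : Type*} [CommRing S] [IsLocalRing S] [IsNoetherianRing S]
    (I : Ideal S) (hI : I ≤ maximalIdeal S) (t : Finset S) (ht : (t : Set S) ⊆ maximalIdeal S)
    (c : ℕ) (h : maximalIdeal S ^ c ≤ I ⊔ Ideal.span (t : Set S)) :
    ((maximalIdeal S).map (Ideal.Quotient.mk I)).height ≤ t.card := by
  classical
  have hprime : ((maximalIdeal S).map (Ideal.Quotient.mk I)).IsPrime :=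
    Ideal.map_isPrime_of_surjective Ideal.Quotient.mk_surjective (by rw [Ideal.mk_ker]; exact hI)
  have hmin : (maximalIdeal S).map (Ideal.Quotient.mk I) ∈
      (Ideal.span ((t.image (Ideal.Quotient.mk I) : Finset (S ⧸ I)) : Set (S ⧸ I))).minimalPrimes := by
    refine ⟨⟨hprime, ?_⟩, ?_⟩
    · rw [Ideal.span_le]
      intro x hx
      simp only [Finset.coe_image, Set.mem_image, Finset.mem_coe] at hx
      obtain ⟨y, hy, rfl⟩ := hx
      exact Ideal.mem_map_of_mem _ (ht hy)
    · rintro q ⟨hq, hq'⟩ _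
      rw [Ideal.map_le_iff_le_comap]
      have hqc : (q.comap (Ideal.Quotient.mk I)).IsPrime := hq.comap _
      apply hqc.le_of_pow_le (n := c)
      refine h.trans (sup_le ?_ ?_)
      · intro x hx
        rw [Ideal.mem_comap, Ideal.Quotient.eq_zero_iff_mem.2 hx]
        exact q.zero_mem
      · rw [Ideal.span_le]
        intro x hx
        rw [SetLike.mem_coe, Ideal.mem_comap]
        apply hq'
        apply Ideal.subset_span
        simp only [Finset.coe_image, Set.mem_image, Finset.mem_coe]
        exact ⟨x, hx, rfl⟩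
  refine (Ideal.height_le_card_of_mem_minimalPrimes_span_finset hmin).trans ?_
  exact_mod_cast Finset.card_image_le

theorem ringKrullDim_eq_of_pow_le {R S : Type*} [CommRing R] [CommRing S] [IsLocalRing R]
    [IsLocalRing S] [IsNoetherianRing R] [IsNoetherianRing S]
    [Algebra R S] [Module.Flat R S] [IsLocalHom (algebraMap R S)] (c : ℕ)
    (h : maximalIdeal S ^ c ≤ (maximalIdeal R).map (algebraMap R S)) :
    ringKrullDim S = ringKrullDim R := by
  have h1 := Ideal.height_eq_height_add_of_liesOver_of_hasGoingDown (maximalIdeal R) (maximalIdeal S)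
  have h2 := height_map_mk_le ((maximalIdeal R).map (algebraMap R S))
    (map_maximalIdeal_le _) ∅ (by simp) c (by simpa using h)
  simp only [Finset.card_empty, Nat.cast_zero, nonpos_iff_eq_zero] at h2
  rw [h2, add_zero] at h1
  rw [← maximalIdeal_height_eq_ringKrullDim, ← maximalIdeal_height_eq_ringKrullDim, h1]

end Vale.Agent.P202
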