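import Mathlib

open IsLocalRing

namespace Vale.Agent.P202

variable {S : Type*} [CommRing S]

/-- `Chain Q c I`: the quotient `S / I` has a filtration with `c` steps, each isomorphic to
`S / Q`. -/
inductive Chain (Q : Ideal S) : ℕ → Ideal S → Prop
  | top : Chain Q 0 ⊤
  | step {c : ℕ} {I I' : Ideal S} (a : S) (h : Chain Q c I') (hI : I' = I ⊔ Ideal.span {a})
      (hcol : ∀ s, s * a ∈ I ↔ s ∈ Q) : Chain Q (c + 1) I

theorem Chain.reg {Q : Ideal S} {c : ℕ} {I : Ideal S} (h : Chain Q c I) {z : S}
    (hz : ∀ s, z * s ∈ Q → s ∈ Q) : ∀ s, z * s ∈ I → s ∈ I := by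
  induction h with
  | top => intro s _; trivial
  | @step c I I' a _ hI hcol ih =>
    intro s hs
    have h1 : s ∈ I' := ih s (by rw [hI]; exact Ideal.mem_sup_left hs)
    rw [hI, Submodule.mem_sup] at h1
    obtain ⟨i, hi, j, hj, rfl⟩ := h1
    rw [Ideal.mem_span_singleton'] at hj
    obtain ⟨t, rfl⟩ := hj
    have h2 : (z * t) * a ∈ I := by
      have : (z * t) * a = z * (i + t * a) - z * i := by ring
      rw [this]
      exact I.sub_mem hs (I.mul_mem_left _ hi)
    have h3 : t ∈ Q := hz t ((hcol _).1 h2)
    exact I.add_mem hi ((hcol _).2 h3)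

theorem Chain.sup {Q : Ideal S} {c : ℕ} {I : Ideal S} (h : Chain Q c I) {z : S}
    (hz : ∀ s, z * s ∈ Q → s ∈ Q) :
    Chain (Q ⊔ Ideal.span {z}) c (I ⊔ Ideal.span {z}) := by
  induction h with
  | top => rw [top_sup_eq]; exact Chain.top
  | @step c I I' a h' hI hcol ih =>
    refine Chain.step a ih ?_ ?_
    · rw [hI, sup_assoc, sup_assoc, sup_comm (Ideal.span {a})]
    · intro s
      constructor
      · intro hs
        rw [Submodule.mem_sup] at hs
        obtain ⟨i, hi, j, hj, hij⟩ := hs
        rw [Ideal.mem_span_singleton'] at hj
        obtain ⟨t, rfl⟩ := hj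
        have h1 : z * t ∈ I' := by
          rw [hI]
          have : z * t = -i + s * a := by rw [← hij]; ring
          rw [this]
          exact Ideal.add_mem _ (Ideal.mem_sup_left (I.neg_mem hi))
            (Ideal.mem_sup_right (Ideal.mul_mem_left _ _ (Ideal.mem_span_singleton_self a)))
        have h2 : t ∈ I' := h'.reg hz t h1
        rw [hI, Submodule.mem_sup] at h2
        obtain ⟨i', hi', j', hj', rfl⟩ := h2
        rw [Ideal.mem_span_singleton'] at hj'
        obtain ⟨t', rfl⟩ := hj'
        have h3 : (s - z * t') * a ∈ I := by
          have : (s - z * t') * a = i + z * i' := by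
            have : s * a = i + (i' + t' * a) * z := hij.symm
            calc (s - z * t') * a = s * a - z * t' * a := by ring
              _ = _ := by rw [this]; ring
          rw [this]
          exact I.add_mem hi (I.mul_mem_left _ hi')
        have h4 := (hcol _).1 h3
        have : s = (s - z * t') + t' * z := by ring
        rw [this]
        exact Ideal.add_mem _ (Ideal.mem_sup_left h4)
          (Ideal.mem_sup_right (Ideal.mul_mem_left _ _ (Ideal.mem_span_singleton_self z)))
      · intro hs
        rw [Submodule.mem_sup] at hs
        obtain ⟨q, hq, j, hj, rfl⟩ := hs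
        rw [Ideal.mem_span_singleton'] at hj
        obtain ⟨t, rfl⟩ := hj
        have : (q + t * z) * a = q * a + (t * a) * z := by ring
        rw [this]
        exact Ideal.add_mem _ (Ideal.mem_sup_left ((hcol _).2 hq))
          (Ideal.mem_sup_right (Ideal.mul_mem_left _ _ (Ideal.mem_span_singleton_self z)))

theorem Chain.comp {Q : Ideal S} {c : ℕ} {L : Ideal S} (hL : Chain Q c L) :
    ∀ {c' : ℕ} {I I' : Ideal S} (b : S), Chain Q c' I' → I' = I ⊔ Ideal.span {b} →
      (∀ s, s * b ∈ I ↔ s ∈ L) → Chain Q (c' + c) I := by
  induction hL with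
  | top =>
    intro c' I I' b h' hI hcol
    have hb : b ∈ I := by
      have := (hcol 1).2 trivial
      simpa using this
    have : I' = I := by
      rw [hI]
      apply sup_eq_left.2
      rw [Ideal.span_singleton_le_iff_mem]
      exact hb
    rw [this] at h'
    exact h'
  | @step c L L' a _ hLL hcolL ih =>
    intro c' I I' b h' hI hcol
    have h1 : Chain Q (c' + c) (I ⊔ Ideal.span {a * b}) := by
      refine ih b h' ?_ ?_
      · rw [hI, sup_assoc]
        congr 1
        symm
        apply sup_eq_right.2
        rw [Ideal.span_singleton_le_iff_mem]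
        exact Ideal.mul_mem_left _ _ (Ideal.mem_span_singleton_self b)
      · intro s
        constructor
        · intro hs
          rw [Submodule.mem_sup] at hs
          obtain ⟨i, hi, j, hj, hij⟩ := hs
          rw [Ideal.mem_span_singleton'] at hj
          obtain ⟨t, rfl⟩ := hj
          have h2 : (s - t * a) * b ∈ I := by
            have : (s - t * a) * b = i := by
              calc (s - t * a) * b = s * b - t * (a * b) := by ring
                _ = i := by rw [← hij]; ring
            rw [this]; exact hi
          have h3 := (hcol _).1 h2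
          rw [hLL]
          have : s = (s - t * a) + t * a := by ring
          rw [this]
          exact Ideal.add_mem _ (Ideal.mem_sup_left h3)
            (Ideal.mem_sup_right (Ideal.mul_mem_left _ _ (Ideal.mem_span_singleton_self a)))
        · intro hs
          rw [hLL, Submodule.mem_sup] at hs
          obtain ⟨l, hl, j, hj, rfl⟩ := hs
          rw [Ideal.mem_span_singleton'] at hj
          obtain ⟨t, rfl⟩ := hj
          have : (l + t * a) * b = l * b + t * (a * b) := by ring
          rw [this]
          exact Ideal.add_mem _ (Ideal.mem_sup_left ((hcol _).2 hl))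
            (Ideal.mem_sup_right (Ideal.mul_mem_left _ _ (Ideal.mem_span_singleton_self _)))
    refine Chain.step (a * b) h1 rfl ?_
    intro s
    rw [← mul_assoc, hcol, hcolL]

theorem Chain.length {Q : Ideal S} {c : ℕ} {I : Ideal S} (h : Chain Q c I) :
    Module.length S (S ⧸ I) = c * Module.length S (S ⧸ Q) := by
  induction h with
  | top =>
    rw [Module.length_eq_zero]
    simp
  | @step c I I' a _ hI hcol ih =>
    have hle : I ≤ I' := by rw [hI]; exact le_sup_left
    let f : (S ⧸ Q) →ₗ[S] (S ⧸ I) :=
      Submodule.liftQ Q ((Submodule.mkQ I).comp (LinearMap.toSpanSingleton S S a)) (by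
        intro s hs
        rw [LinearMap.mem_ker]
        simp only [LinearMap.comp_apply, LinearMap.toSpanSingleton_apply, smul_eq_mul,
          Submodule.mkQ_apply]
        rw [Submodule.Quotient.mk_eq_zero]
        exact (hcol s).2 hs)
    have hf : ∀ s : S, f (Submodule.Quotient.mk s) = Submodule.Quotient.mk (s * a) := by
      intro s
      rfl
    let g : (S ⧸ I) →ₗ[S] (S ⧸ I') := Submodule.factor hle
    have hg : ∀ s : S, g (Submodule.Quotient.mk s) = Submodule.Quotient.mk s := by
      intro s
      rfl
    have hinj : Function.Injective f := by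
      rw [← LinearMap.ker_eq_bot, LinearMap.ker_eq_bot']
      intro x hx
      obtain ⟨s, rfl⟩ := Submodule.Quotient.mk_surjective _ x
      rw [hf, Submodule.Quotient.mk_eq_zero] at hx
      rw [Submodule.Quotient.mk_eq_zero]
      exact (hcol s).1 hx
    have hsurj : Function.Surjective g := Submodule.factor_surjective hle
    have hex : Function.Exact f g := by
      intro x
      obtain ⟨s, rfl⟩ := Submodule.Quotient.mk_surjective _ x
      rw [hg, Submodule.Quotient.mk_eq_zero]
      constructor
      · intro hs
        rw [hI, Submodule.mem_sup] at hs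
        obtain ⟨i, hi, j, hj, rfl⟩ := hs
        rw [Ideal.mem_span_singleton'] at hj
        obtain ⟨t, rfl⟩ := hj
        refine ⟨Submodule.Quotient.mk t, ?_⟩
        rw [hf, Submodule.Quotient.eq]
        have : t * a - (i + t * a) = -i := by ring
        rw [this]
        exact I.neg_mem hi
      · rintro ⟨y, hy⟩
        obtain ⟨t, rfl⟩ := Submodule.Quotient.mk_surjective _ y
        rw [hf, Submodule.Quotient.eq] at hy
        have : s = -(t * a - s) + t * a := by ring
        rw [this, hI]
        exact Ideal.add_mem _ (Ideal.mem_sup_left (I.neg_mem hy))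
          (Ideal.mem_sup_right (Ideal.mul_mem_left _ _ (Ideal.mem_span_singleton_self a)))
    rw [Module.length_eq_add_of_exact f g hinj hsurj hex, ih]
    push_cast
    ring

end Vale.Agent.P202
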