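import Mathlib
import Vale.Agent.P202.Chain

open IsLocalRing

namespace Vale.Agent.P202

variable {S : Type*} [CommRing S]

theorem reg_pow {I : Ideal S} {z : S} (hz : ∀ s, z * s ∈ I → s ∈ I) (j : ℕ) :
    ∀ s, z ^ j * s ∈ I → s ∈ I := by
  induction j with
  | zero => intro s hs; simpa using hs
  | succ j ih =>
    intro s hs
    apply ih
    apply hz
    have : z * (z ^ j * s) = z ^ (j + 1) * s := by ring
    rw [this]
    exact hs

theorem sup_span_pow_le (Q : Ideal S) (z : S) (N j : ℕ) (hj : j < N) :
    (Q ⊔ Ideal.span {z}) ^ N ≤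
      Ideal.span {z ^ (j + 1)} ⊔ Ideal.span {z ^ j} * Q ^ (N - j) ⊔ Q ^ (N - j + 1) := by
  rw [← Ideal.add_eq_sup (I := Q), add_pow, Ideal.sum_eq_sup]
  apply Finset.sup_le
  intro k hk
  rw [Finset.mem_range] at hk
  refine Ideal.mul_le_left.trans ?_
  rw [Ideal.span_singleton_pow]
  rcases lt_trichotomy (N - k) j with h | h | h
  · refine le_trans ?_ le_sup_right
    refine Ideal.mul_le_left.trans ?_
    exact Ideal.pow_le_pow_right (by omega)
  · refine le_trans ?_ (le_sup_left.trans' le_sup_right)
    have hk' : k = N - j := by omega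
    rw [h, hk', mul_comm]
  · refine le_trans ?_ (le_sup_left.trans' le_sup_left)
    refine Ideal.mul_le_right.trans ?_
    rw [Ideal.span_singleton_le_span_singleton]
    exact pow_dvd_pow z (by omega)

theorem Chain.pow_step {Q : Ideal S} {c : ℕ → ℕ} (h : ∀ N, Chain Q (c N) (Q ^ N)) {z : S}
    (hz : ∀ s, z * s ∈ Q → s ∈ Q) (N : ℕ) :
    Chain (Q ⊔ Ideal.span {z}) (∑ i ∈ Finset.range N, c (i + 1)) ((Q ⊔ Ideal.span {z}) ^ N) := by
  have key : ∀ j, j ≤ N → Chain (Q ⊔ Ideal.span {z}) (∑ i ∈ Finset.range j, c (N - i))
      (Ideal.span {z ^ j} ⊔ (Q ⊔ Ideal.span {z}) ^ N) := by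
    intro j
    induction j with
    | zero =>
      intro _
      simp only [pow_zero, Ideal.span_singleton_one, top_sup_eq, Finset.range_zero,
        Finset.sum_empty]
      exact Chain.top
    | succ j ih =>
      intro hj
      have hj' : j < N := hj
      rw [Finset.sum_range_succ]
      refine Chain.comp ((h (N - j)).sup hz) (z ^ j) (ih hj'.le) ?_ ?_
      · rw [sup_right_comm]
        congr 1
        symm
        apply sup_eq_right.2
        rw [Ideal.span_singleton_le_span_singleton]
        exact pow_dvd_pow z (by omega)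
      · intro s
        constructor
        · intro hs
          have h1 : s * z ^ j ∈ Ideal.span {z ^ (j + 1)} ⊔ Ideal.span {z ^ j} * Q ^ (N - j) ⊔
              Q ^ (N - j + 1) := by
            refine (sup_le ?_ (sup_span_pow_le Q z N j hj')) hs
            exact le_sup_left.trans le_sup_left
          rw [Submodule.mem_sup] at h1
          obtain ⟨u, hu, p, hp, hup⟩ := h1
          rw [Submodule.mem_sup] at hu
          obtain ⟨u1, hu1, u2, hu2, rfl⟩ := hu
          rw [Ideal.mem_span_singleton'] at hu1
          obtain ⟨t, rfl⟩ := hu1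
          rw [Ideal.mem_span_singleton_mul] at hu2
          obtain ⟨q, hq, rfl⟩ := hu2
          have h2 : z ^ j * (s - t * z - q) ∈ Q ^ (N - j + 1) := by
            have : z ^ j * (s - t * z - q) = p := by
              calc z ^ j * (s - t * z - q) = s * z ^ j - (t * z ^ (j + 1) + z ^ j * q) := by ring
                _ = p := by rw [← hup]; ring
            rw [this]; exact hp
          have h3 : s - t * z - q ∈ Q ^ (N - j + 1) :=
            reg_pow ((h (N - j + 1)).reg hz) j _ h2
          have h4 : s - t * z - q ∈ Q ^ (N - j) := Ideal.pow_le_pow_right (by omega) h3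
          have : s = ((s - t * z - q) + q) + t * z := by ring
          rw [this]
          exact Ideal.add_mem _ (Ideal.mem_sup_left (Ideal.add_mem _ h4 hq))
            (Ideal.mem_sup_right (Ideal.mul_mem_left _ _ (Ideal.mem_span_singleton_self z)))
        · intro hs
          rw [Submodule.mem_sup] at hs
          obtain ⟨q, hq, u, hu, rfl⟩ := hs
          rw [Ideal.mem_span_singleton'] at hu
          obtain ⟨t, rfl⟩ := hu
          have : (q + t * z) * z ^ j = t * z ^ (j + 1) + q * z ^ j := by ring
          rw [this]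
          refine Ideal.add_mem _ (Ideal.mem_sup_left
            (Ideal.mul_mem_left _ _ (Ideal.mem_span_singleton_self _))) (Ideal.mem_sup_right ?_)
          have hN : (Q ⊔ Ideal.span {z}) ^ N =
              (Q ⊔ Ideal.span {z}) ^ (N - j) * (Q ⊔ Ideal.span {z}) ^ j := by
            rw [← pow_add]
            congr 1
            omega
          rw [hN]
          refine Ideal.mul_mem_mul (Ideal.pow_right_mono le_sup_left _ hq) ?_
          apply Ideal.pow_mem_pow
          exact Ideal.mem_sup_right (Ideal.mem_span_singleton_self z)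
  have h1 := key N le_rfl
  have h2 : Ideal.span {z ^ N} ⊔ (Q ⊔ Ideal.span {z}) ^ N = (Q ⊔ Ideal.span {z}) ^ N := by
    apply sup_eq_right.2
    rw [Ideal.span_singleton_le_iff_mem]
    apply Ideal.pow_mem_pow
    exact Ideal.mem_sup_right (Ideal.mem_span_singleton_self z)
  rw [h2] at h1
  have h3 : ∑ i ∈ Finset.range N, c (N - i) = ∑ i ∈ Finset.range N, c (i + 1) := by
    rw [← Finset.sum_range_reflect]
    apply Finset.sum_congr rfl
    intro i hi
    rw [Finset.mem_range] at hi
    congr 1
    omega
  rw [h3] at h1
  exact h1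

end Vale.Agent.P202
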