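import Mathlib
import Vale.Agent.P202.Basic
import Vale.Agent.P202.Chain
import Vale.Agent.P202.ChainPow

open IsLocalRing

namespace Vale.Agent.P202

variable {S : Type*} [CommRing S]

/-- `z₁, z₂, …` is a (weakly) regular sequence on `S / Q`, in elementary terms. -/
def RegOn : Ideal S → List S → Prop
  | _, [] => True
  | Q, z :: zs => (∀ s, z * s ∈ Q → s ∈ Q) ∧ RegOn (Q ⊔ Ideal.span {z}) zs

/-- iterated summation `c ↦ (N ↦ c 1 + ⋯ + c N)`. -/
def iterSum : ℕ → (ℕ → ℕ) → (ℕ → ℕ)
  | 0, c => c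
  | k + 1, c => iterSum k (fun N => ∑ i ∈ Finset.range N, c (i + 1))

theorem chain_pow_of_regOn : ∀ (zs : List S) (Q : Ideal S) (c : ℕ → ℕ),
    (∀ N, Chain Q (c N) (Q ^ N)) → RegOn Q zs →
    ∀ N, Chain (Q ⊔ Ideal.ofList zs) (iterSum zs.length c N) ((Q ⊔ Ideal.ofList zs) ^ N) := by
  intro zs
  induction zs with
  | nil =>
    intro Q c h _ N
    simpa [iterSum] using h N
  | cons z zs ih =>
    intro Q c h hreg N
    rw [Ideal.ofList_cons, ← sup_assoc]
    exact ih (Q ⊔ Ideal.span {z}) _ (fun N => Chain.pow_step h hreg.1 N) hreg.2 N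

/-- `Q` has a finite generating family all of whose relations have coefficients in `Q`. -/
def HasInd (Q : Ideal S) : Prop :=
  ∃ (k : ℕ) (g : Fin k → S), Ideal.span (Set.range g) = Q ∧
    ∀ c : Fin k → S, ∑ i, c i * g i = 0 → ∀ i, c i ∈ Q

theorem HasInd.sup {Q : Ideal S} (h : HasInd Q) {z : S} (hz : ∀ s, z * s ∈ Q → s ∈ Q) :
    HasInd (Q ⊔ Ideal.span {z}) := by
  obtain ⟨k, g, hg, hind⟩ := h
  refine ⟨k + 1, Fin.cons z g, ?_, ?_⟩
  · rw [Fin.range_cons, Ideal.span_insert, hg, sup_comm]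
  · intro c hc
    rw [Fin.sum_univ_succ] at hc
    simp only [Fin.cons_zero, Fin.cons_succ] at hc
    have h0 : c 0 ∈ Q := by
      apply hz
      have : z * c 0 = - ∑ i : Fin k, c i.succ * g i := by
        rw [eq_neg_iff_add_eq_zero, mul_comm]
        exact hc
      rw [this]
      apply Q.neg_mem
      refine Ideal.sum_mem _ (fun i _ => ?_)
      apply Ideal.mul_mem_left
      rw [← hg]
      exact Ideal.subset_span ⟨i, rfl⟩
    have h0' := h0
    rw [← hg, Ideal.mem_span_range_iff_exists_fun] at h0'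
    obtain ⟨b, hb⟩ := h0'
    have h1 := hind (fun i => c i.succ + z * b i) (by
      have : ∑ i, (c i.succ + z * b i) * g i = z * ∑ i, b i * g i + ∑ i : Fin k, c i.succ * g i := by
        rw [Finset.mul_sum, ← Finset.sum_add_distrib]
        apply Finset.sum_congr rfl
        intro i _
        ring
      rw [this, hb, mul_comm]
      exact hc)
    intro i
    refine Fin.cases ?_ ?_ i
    · exact Ideal.mem_sup_left h0
    · intro j
      have : c j.succ = (c j.succ + z * b j) + (- b j) * z := by ring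
      rw [this]
      exact Ideal.add_mem _ (Ideal.mem_sup_left (h1 j))
        (Ideal.mem_sup_right (Ideal.mul_mem_left _ _ (Ideal.mem_span_singleton_self z)))

theorem hasInd_of_regOn : ∀ (zs : List S) (Q : Ideal S), HasInd Q → RegOn Q zs →
    HasInd (Q ⊔ Ideal.ofList zs) := by
  intro zs
  induction zs with
  | nil =>
    intro Q h _
    simpa using h
  | cons z zs ih =>
    intro Q h hreg
    rw [Ideal.ofList_cons, ← sup_assoc]
    exact ih _ (h.sup hreg.1) hreg.2

theorem hasInd_map_maximalIdeal {R : Type*} [CommRing R] [IsLocalRing R] [IsNoetherianRing R]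
    [Algebra R S] [Module.Flat R S] : HasInd ((maximalIdeal R).map (algebraMap R S)) := by
  classical
  obtain ⟨s, hs, hmin⟩ := exists_min_gens R
  refine ⟨s.card, fun j => algebraMap R S (s.equivFin.symm j : R), ?_, ?_⟩
  · rw [← hs, Ideal.map_span]
    congr 1
    ext x
    constructor
    · rintro ⟨j, rfl⟩
      exact ⟨_, (s.equivFin.symm j).2, rfl⟩
    · rintro ⟨y, hy, rfl⟩
      exact ⟨s.equivFin ⟨y, hy⟩, by simp⟩
  · intro c hc i
    have h1 := flat_rel (S := S) (fun i : s => (i : R)) hmin (fun i => c (s.equivFin i)) (by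
      rw [← hc, ← Equiv.sum_comp s.equivFin]
      simp) (s.equivFin.symm i)
    simpa using h1

theorem HasInd.sq_eq_mul [IsLocalRing S] {Q : Ideal S} (h : HasInd Q)
    (hQ : Q ≤ maximalIdeal S) (h2 : maximalIdeal S ^ 2 ≤ Q)
    (hv : ∀ y : S, maximalIdeal S ≠ Q ⊔ Ideal.span {y}) :
    maximalIdeal S ^ 2 = Q * maximalIdeal S := by
  obtain ⟨k, g, hg, hind⟩ := h
  exact sq_eq_mul_of_ind Q g hg hind hQ h2 hv

end Vale.Agent.P202
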