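import Mathlib
import Vale.Agent.P202.Ind

open Filter Topology Finset

namespace Vale.Agent.P202

theorem tendsto_diff_ratio (D : ℕ) :
    Tendsto (fun i : ℕ => (((i : ℝ) + 1) ^ (D + 1) - (i : ℝ) ^ (D + 1)) / ((i : ℝ) + 1) ^ D)
      atTop (𝓝 ((D : ℝ) + 1)) := by
  have hq : Tendsto (fun i : ℕ => (i : ℝ) / ((i : ℝ) + 1)) atTop (𝓝 1) :=
    tendsto_natCast_div_add_atTop (1 : ℝ)
  have h1 : Tendsto (fun i : ℕ => ∑ k ∈ range (D + 1), ((i : ℝ) / ((i : ℝ) + 1)) ^ (D - k))
      atTop (𝓝 (∑ k ∈ range (D + 1), (1 : ℝ) ^ (D - k))) :=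
    tendsto_finsetSum _ (fun k _ => hq.pow (D - k))
  have h2 : (∑ k ∈ range (D + 1), (1 : ℝ) ^ (D - k)) = (D : ℝ) + 1 := by simp
  rw [h2] at h1
  refine h1.congr (fun i => ?_)
  have hi : ((i : ℝ) + 1) ≠ 0 := by positivity
  have h3 := Commute.geom_sum₂_mul (Commute.all ((i : ℝ) + 1) (i : ℝ)) (D + 1)
  have h4 : ((i : ℝ) + 1) - (i : ℝ) = 1 := by ring
  rw [h4, mul_one] at h3
  rw [← h3, Finset.sum_div]
  apply Finset.sum_congr rfl
  intro k hk
  rw [Finset.mem_range] at hk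
  have h5 : D + 1 - 1 - k = D - k := by omega
  rw [h5, div_pow]
  have h6 : ((i : ℝ) + 1) ^ D = ((i : ℝ) + 1) ^ k * ((i : ℝ) + 1) ^ (D - k) := by
    rw [← pow_add]
    congr 1
    omega
  rw [h6]
  field_simp

theorem tendsto_sum_of_tendsto (f : ℕ → ℝ) (D : ℕ) (e : ℝ)
    (h : Tendsto (fun N : ℕ => (D.factorial : ℝ) * f N / (N : ℝ) ^ D) atTop (𝓝 e)) :
    Tendsto (fun N : ℕ => ((D + 1).factorial : ℝ) * (∑ i ∈ range N, f (i + 1)) / (N : ℝ) ^ (D + 1))
      atTop (𝓝 e) := by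
  set w : ℕ → ℝ := fun i => (((i : ℝ) + 1) ^ (D + 1) - (i : ℝ) ^ (D + 1)) / ((D + 1).factorial : ℝ)
    with hw
  have hfac : (0 : ℝ) < ((D + 1).factorial : ℝ) := by positivity
  have hfacD : (0 : ℝ) < (D.factorial : ℝ) := by positivity
  have hw_pos : ∀ i, 0 < w i := by
    intro i
    apply div_pos _ hfac
    have : (i : ℝ) ^ (D + 1) < ((i : ℝ) + 1) ^ (D + 1) := by
      apply pow_lt_pow_left₀ (by linarith) (by positivity) (by omega)
    linarith
  have hsum : ∀ N : ℕ, ∑ i ∈ range N, w i = (N : ℝ) ^ (D + 1) / ((D + 1).factorial : ℝ) := by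
    intro N
    have := Finset.sum_range_sub (fun i : ℕ => (i : ℝ) ^ (D + 1) / ((D + 1).factorial : ℝ)) N
    simp only [Nat.cast_zero, ne_eq, Nat.add_eq_zero_iff, one_ne_zero, and_false,
      not_false_eq_true, zero_pow, zero_div, sub_zero] at this
    rw [← this]
    apply Finset.sum_congr rfl
    intro i _
    rw [hw]
    push_cast
    ring
  have hratio : Tendsto (fun i : ℕ => f (i + 1) / w i) atTop (𝓝 e) := by
    have h1 : Tendsto (fun i : ℕ => (D.factorial : ℝ) * f (i + 1) / ((i + 1 : ℕ) : ℝ) ^ D) atTop (𝓝 e) :=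
      h.comp (tendsto_add_atTop_nat 1)
    have h2 := (tendsto_diff_ratio D).inv₀ (by positivity)
    have h3 := (h1.mul h2).mul_const ((D : ℝ) + 1)
    have h4 : e * ((D : ℝ) + 1)⁻¹ * ((D : ℝ) + 1) = e := by
      field_simp
    rw [h4] at h3
    refine h3.congr (fun i => ?_)
    have hi : ((i : ℝ) + 1) ^ D ≠ 0 := by positivity
    have hwi := (hw_pos i).ne'
    have hd : (((i : ℝ) + 1) ^ (D + 1) - (i : ℝ) ^ (D + 1)) ≠ 0 := by
      intro h0
      apply hwi
      rw [hw]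
      simp only
      rw [h0, zero_div]
    rw [hw]
    simp only
    rw [Nat.factorial_succ]
    push_cast
    field_simp
  have hlo : (fun i : ℕ => f (i + 1) - e * w i) =o[atTop] w := by
    rw [Asymptotics.isLittleO_iff_tendsto (fun i hi => absurd hi (hw_pos i).ne')]
    have h1 := hratio.sub_const e
    rw [sub_self] at h1
    refine h1.congr (fun i => ?_)
    have := (hw_pos i).ne'
    field_simp
  have hdiv : Tendsto (fun N : ℕ => ∑ i ∈ range N, w i) atTop atTop := by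
    have h1 : Tendsto (fun N : ℕ => (N : ℝ) ^ (D + 1) / ((D + 1).factorial : ℝ)) atTop atTop := by
      apply Tendsto.atTop_div_const hfac
      exact (tendsto_pow_atTop (by omega)).comp tendsto_natCast_atTop_atTop
    exact h1.congr (fun N => (hsum N).symm)
  have hlo2 := hlo.sum_range (fun i => (hw_pos i).le) hdiv
  have h5 := hlo2.tendsto_div_nhds_zero
  have h6 := h5.add_const e
  rw [zero_add] at h6
  refine h6.congr' ?_
  filter_upwards [eventually_ge_atTop 1] with N hN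
  have hN' : (N : ℝ) ^ (D + 1) ≠ 0 := by positivity
  rw [Finset.sum_sub_distrib, ← Finset.mul_sum, hsum]
  field_simp
  ring

theorem tendsto_iterSum (r : ℕ) : ∀ (c : ℕ → ℕ) (d : ℕ) (e : ℝ),
    Tendsto (fun N : ℕ => (d.factorial : ℝ) * (c N : ℝ) / (N : ℝ) ^ d) atTop (𝓝 e) →
    Tendsto (fun N : ℕ => ((d + r).factorial : ℝ) * (iterSum r c N : ℝ) / (N : ℝ) ^ (d + r))
      atTop (𝓝 e) := by
  induction r with
  | zero => intro c d e h; simpa [iterSum] using h
  | succ r ih =>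
    intro c d e h
    have h1 := tendsto_sum_of_tendsto (fun N => (c N : ℝ)) d e h
    have h2 := ih (fun N => ∑ i ∈ range N, c (i + 1)) (d + 1) e (by
      refine h1.congr (fun N => ?_)
      push_cast
      rfl)
    have h3 : d + 1 + r = d + (r + 1) := by omega
    rw [h3] at h2
    exact h2

end Vale.Agent.P202
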