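import Mathlib
import Vale.Agent.P202.Chain

open IsLocalRing

namespace Vale.Agent.P202

theorem exists_chain_of_pow_le {R : Type*} [CommRing R] [IsLocalRing R] [IsNoetherianRing R]
    (N : ℕ) : ∀ I : Ideal R, maximalIdeal R ^ N ≤ I → ∃ c, Chain (maximalIdeal R) c I := by
  intro I
  induction I using WellFoundedGT.induction with
  | ind I ih =>
    intro hI
    by_cases htop : I = ⊤
    · exact ⟨0, htop ▸ Chain.top⟩
    · classical
      have hex : ∃ k, maximalIdeal R ^ k ≤ I := ⟨N, hI⟩
      set k := Nat.find hex with hk
      have hk1 : maximalIdeal R ^ k ≤ I := Nat.find_spec hex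
      have hk0 : k ≠ 0 := by
        intro h0
        rw [h0, pow_zero, Ideal.one_eq_top, top_le_iff] at hk1
        exact htop hk1
      have hk2 : ¬ maximalIdeal R ^ (k - 1) ≤ I := Nat.find_min hex (by omega)
      obtain ⟨a, ha, haI⟩ := SetLike.not_le_iff_exists.1 hk2
      have hlt : I < I ⊔ Ideal.span {a} := by
        apply lt_of_le_of_ne le_sup_left
        intro h
        apply haI
        rw [h]
        exact Ideal.mem_sup_right (Ideal.mem_span_singleton_self a)
      obtain ⟨c, hc⟩ := ih _ hlt (hI.trans le_sup_left)
      refine ⟨c + 1, Chain.step a hc rfl ?_⟩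
      intro s
      constructor
      · intro hs
        by_contra hsm
        have hu : IsUnit s := by
          by_contra hnu
          exact hsm ((mem_maximalIdeal _).2 hnu)
        obtain ⟨u, rfl⟩ := hu
        apply haI
        have : a = ↑u⁻¹ * (↑u * a) := by rw [← mul_assoc]; simp
        rw [this]
        exact I.mul_mem_left _ hs
      · intro hs
        apply hk1
        have : k = 1 + (k - 1) := by omega
        rw [this, pow_add, pow_one]
        exact Ideal.mul_mem_mul hs ha

theorem mem_map_of_mul_mem_map {R S : Type*} [CommRing R] [CommRing S] [IsNoetherianRing R]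
    [Algebra R S] [Module.Flat R S] {I Q : Ideal R} {a : R} (hcol : ∀ t, t * a ∈ I → t ∈ Q)
    {s : S} (hs : s * algebraMap R S a ∈ I.map (algebraMap R S)) :
    s ∈ Q.map (algebraMap R S) := by
  obtain ⟨k, g, hg⟩ := Submodule.fg_iff_exists_fin_generating_family.1 (IsNoetherian.noetherian I)
  have hg' : Ideal.span (Set.range g) = I := hg
  have hmap : I.map (algebraMap R S) = Ideal.span (Set.range (fun j => algebraMap R S (g j))) := by
    rw [← hg', Ideal.map_span]
    congr 1
    ext x
    simp
  rw [hmap, Ideal.mem_span_range_iff_exists_fun] at hs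
  obtain ⟨t, ht⟩ := hs
  have hrel : ∑ i : Option (Fin k), (Option.elim i a g) • (Option.elim i s (fun j => - t j)) = 0 := by
    rw [Fintype.sum_option]
    simp only [Option.elim_none, Option.elim_some, Algebra.smul_def]
    rw [mul_comm, ← ht, ← Finset.sum_add_distrib]
    apply Finset.sum_eq_zero
    intro j _
    ring
  obtain ⟨κ, α, y, h1, h2⟩ := Module.Flat.isTrivialRelation_of_sum_smul_eq_zero (R := R) (M := S) hrel
  have hs' := h1 none
  simp only [Option.elim_none] at hs'
  rw [hs']
  refine Ideal.sum_mem _ (fun j _ => ?_)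
  rw [Algebra.smul_def]
  apply Ideal.mul_mem_right
  apply Ideal.mem_map_of_mem
  apply hcol
  have h3 := h2 j
  rw [Fintype.sum_option] at h3
  simp only [Option.elim_none, Option.elim_some] at h3
  have : α none j * a = - ∑ i, g i * α (some i) j := by
    rw [eq_neg_iff_add_eq_zero, mul_comm]
    exact h3
  rw [this]
  apply I.neg_mem
  refine Ideal.sum_mem _ (fun i _ => ?_)
  apply Ideal.mul_mem_right
  rw [← hg']
  exact Ideal.subset_span ⟨i, rfl⟩

theorem Chain.map {R S : Type*} [CommRing R] [CommRing S] [IsNoetherianRing R]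
    [Algebra R S] [Module.Flat R S] {Q : Ideal R} {c : ℕ} {I : Ideal R} (h : Chain Q c I) :
    Chain (Q.map (algebraMap R S)) c (I.map (algebraMap R S)) := by
  induction h with
  | top => rw [Ideal.map_top]; exact Chain.top
  | @step c I I' a _ hI hcol ih =>
    refine Chain.step (algebraMap R S a) ih ?_ ?_
    · rw [hI, Ideal.map_sup, Ideal.map_span, Set.image_singleton]
    · intro s
      constructor
      · intro hs
        exact mem_map_of_mul_mem_map (fun t ht => (hcol t).1 ht) hs
      · intro hs
        have h1 : s * algebraMap R S a ∈ Q.map (algebraMap R S) * (Ideal.span {a}).map (algebraMap R S) :=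
          Ideal.mul_mem_mul hs (Ideal.mem_map_of_mem _ (Ideal.mem_span_singleton_self a))
        rw [← Ideal.map_mul] at h1
        refine Ideal.map_mono ?_ h1
        rw [Ideal.mul_le]
        intro q hq b hb
        rw [Ideal.mem_span_singleton'] at hb
        obtain ⟨t, rfl⟩ := hb
        have : q * (t * a) = t * (q * a) := by ring
        rw [this]
        exact I.mul_mem_left _ ((hcol q).2 hq)

theorem length_residue (R : Type*) [CommRing R] [IsLocalRing R] :
    Module.length R (R ⧸ maximalIdeal R) = 1 := by
  rw [Module.length_eq_one_iff]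
  exact isSimpleModule_iff_quot_maximal.2 ⟨maximalIdeal R, inferInstance, ⟨LinearEquiv.refl _ _⟩⟩

theorem chain_map_pow {R S : Type*} [CommRing R] [CommRing S] [IsLocalRing R] [IsNoetherianRing R]
    [Algebra R S] [Module.Flat R S] (N : ℕ) :
    Chain ((maximalIdeal R).map (algebraMap R S))
      (Module.length R (R ⧸ maximalIdeal R ^ N)).toNat
      (((maximalIdeal R).map (algebraMap R S)) ^ N) := by
  obtain ⟨c, hc⟩ := exists_chain_of_pow_le N (maximalIdeal R ^ N) le_rfl
  have h1 := hc.length
  rw [length_residue, mul_one] at h1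
  rw [h1, ENat.toNat_natCast, ← Ideal.map_pow]
  exact hc.map

end Vale.Agent.P202
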