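import Mathlib
import Vale.Agent.P202.Basic

open IsLocalRing

namespace Vale.Agent.P202

theorem height_map_mk_eq {S : Type*} [CommRing S] [IsLocalRing S] [IsNoetherianRing S]
    (I : Ideal S) (hI : I ≠ ⊤) :
    (((maximalIdeal S).map (Ideal.Quotient.mk I)).height : WithBot ℕ∞) = ringKrullDim (S ⧸ I) := by
  have : Nontrivial (S ⧸ I) := Ideal.Quotient.nontrivial_iff.mpr hI
  have := IsLocalRing.of_surjective' (Ideal.Quotient.mk I) Ideal.Quotient.mk_surjective
  have := IsLocalHom.of_surjective (Ideal.Quotient.mk I) Ideal.Quotient.mk_surjective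
  have h : (maximalIdeal S).map (Ideal.Quotient.mk I) = maximalIdeal (S ⧸ I) := by
    ext x
    obtain ⟨x, rfl⟩ := Ideal.Quotient.mk_surjective x
    simp [sup_eq_left.mpr (le_maximalIdeal hI)]
  rw [h, maximalIdeal_height_eq_ringKrullDim]

theorem mem_maximalIdeal_of_isRegular {S : Type*} [CommRing S] [IsLocalRing S]
    (I : Ideal S) (z : List S) (hreg : RingTheory.Sequence.IsRegular (S ⧸ I) z) :
    I ⊔ Ideal.ofList z ≤ maximalIdeal S := by
  apply le_maximalIdeal
  intro htop
  apply hreg.top_ne_smul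
  symm
  rw [eq_top_iff]
  intro x _
  obtain ⟨s, rfl⟩ := Submodule.Quotient.mk_surjective _ x
  have hs : s ∈ I ⊔ Ideal.ofList z := by rw [htop]; trivial
  rw [Submodule.mem_sup] at hs
  obtain ⟨i, hi, j, hj, rfl⟩ := hs
  have h1 : (Submodule.Quotient.mk (i + j) : S ⧸ I) = j • (Submodule.Quotient.mk 1 : S ⧸ I) := by
    rw [← Submodule.Quotient.mk_smul, Submodule.Quotient.eq]
    simpa using hi
  rw [h1]
  exact Submodule.smul_mem_smul hj trivial

theorem ringKrullDim_eq_add {R S : Type*} [CommRing R] [CommRing S] [IsLocalRing R]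
    [IsLocalRing S] [IsNoetherianRing R] [IsNoetherianRing S]
    [Algebra R S] [Module.Flat R S] [IsLocalHom (algebraMap R S)] (z : List S)
    (hreg : RingTheory.Sequence.IsRegular (S ⧸ (maximalIdeal R).map (algebraMap R S)) z)
    (c : ℕ) (h : maximalIdeal S ^ c ≤ (maximalIdeal R).map (algebraMap R S) ⊔ Ideal.ofList z) :
    ringKrullDim S = ringKrullDim R + z.length := by
  classical
  set mS := (maximalIdeal R).map (algebraMap R S) with hmS
  have hne : mS ≠ ⊤ := (map_maximalIdeal_lt_top (algebraMap R S)).ne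
  have h1 := Ideal.height_eq_height_add_of_liesOver_of_hasGoingDown (maximalIdeal R) (maximalIdeal S)
  have hzn : Ideal.ofList z ≤ maximalIdeal S :=
    le_sup_right.trans (mem_maximalIdeal_of_isRegular mS z hreg)
  have hspan : Ideal.span ((z.toFinset : Finset S) : Set S) = Ideal.ofList z := by
    congr 1
    ext x
    simp
  have h2 : ((maximalIdeal S).map (Ideal.Quotient.mk mS)).height ≤ z.length := by
    refine (height_map_mk_le mS (map_maximalIdeal_le _) z.toFinset ?_ c ?_).trans ?_
    · intro x hx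
      apply hzn
      rw [← hspan]
      exact Ideal.subset_span hx
    · rw [hspan]; exact h
    · exact_mod_cast List.toFinset_card_le z
  have h3 : (z.length : WithBot ℕ∞) ≤ ((maximalIdeal S).map (Ideal.Quotient.mk mS)).height := by
    rw [height_map_mk_eq mS hne, ← Module.supportDim_quotient_eq_ringKrullDim,
      ← Module.supportDim_add_length_eq_supportDim_of_isRegular z hreg]
    have hnt : Nontrivial ((S ⧸ mS) ⧸ (Ideal.ofList z • (⊤ : Submodule S (S ⧸ mS)))) :=
      Submodule.Quotient.nontrivial_iff.2 hreg.top_ne_smul.symm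
    have h4 : Module.supportDim S ((S ⧸ mS) ⧸ (Ideal.ofList z • (⊤ : Submodule S (S ⧸ mS)))) ≠ ⊥ :=
      Module.supportDim_ne_bot_of_nontrivial S _
    have h5 : (0 : WithBot ℕ∞) ≤
        Module.supportDim S ((S ⧸ mS) ⧸ (Ideal.ofList z • (⊤ : Submodule S (S ⧸ mS)))) := by
      obtain ⟨x, hx⟩ := WithBot.ne_bot_iff_exists.1 h4
      rw [← hx]
      exact_mod_cast (zero_le : (0 : ℕ∞) ≤ x)
    calc (z.length : WithBot ℕ∞) = 0 + z.length := by rw [zero_add]
      _ ≤ _ := by gcongr
  have h6 : ((maximalIdeal S).map (Ideal.Quotient.mk mS)).height = z.length := by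
    apply le_antisymm h2
    exact_mod_cast h3
  rw [h6] at h1
  rw [← maximalIdeal_height_eq_ringKrullDim, ← maximalIdeal_height_eq_ringKrullDim, h1]
  push_cast
  rfl

end Vale.Agent.P202
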