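import Mathlib
import Vale.Agent.P202.Ind

open IsLocalRing Pointwise

namespace Vale.Agent.P202

variable {S : Type*} [CommRing S]

theorem smul_top_eq_map_mkQ (I : Ideal S) (z : S) :
    (z • (⊤ : Submodule S (S ⧸ I))) = Submodule.map (Submodule.mkQ I) (Ideal.span {z}) := by
  ext x
  constructor
  · intro hx
    rw [Submodule.mem_smul_pointwise_iff_exists] at hx
    obtain ⟨y, _, rfl⟩ := hx
    obtain ⟨s, rfl⟩ := Submodule.Quotient.mk_surjective _ y
    refine ⟨z * s, Ideal.mul_mem_right _ _ (Ideal.mem_span_singleton_self z), ?_⟩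
    rfl
  · rintro ⟨y, hy, rfl⟩
    have hy' : y ∈ Ideal.span {z} := hy
    rw [Ideal.mem_span_singleton'] at hy'
    obtain ⟨t, rfl⟩ := hy'
    rw [Submodule.mem_smul_pointwise_iff_exists]
    refine ⟨Submodule.mkQ I t, trivial, ?_⟩
    rw [← map_smul, smul_eq_mul, mul_comm]

noncomputable def quotSMulTopEquiv (I : Ideal S) (z : S) :
    QuotSMulTop z (S ⧸ I) ≃ₗ[S] S ⧸ (I ⊔ Ideal.span {z}) :=
  Submodule.quotEquivOfEq _ _ (smul_top_eq_map_mkQ I z) ≪≫ₗ
    Submodule.quotientQuotientEquivQuotientSup I (Ideal.span {z})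

theorem regOn_of_isWeaklyRegular : ∀ (zs : List S) (I : Ideal S),
    RingTheory.Sequence.IsWeaklyRegular (S ⧸ I) zs → RegOn I zs := by
  intro zs
  induction zs with
  | nil => intro I _; trivial
  | cons z zs ih =>
    intro I h
    rw [RingTheory.Sequence.isWeaklyRegular_cons_iff] at h
    refine ⟨?_, ?_⟩
    · intro s hs
      have h1 : z • (Submodule.Quotient.mk s : S ⧸ I) = z • (0 : S ⧸ I) := by
        rw [smul_zero, ← Submodule.Quotient.mk_smul, Submodule.Quotient.mk_eq_zero]
        exact hs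
      have h2 := h.1 h1
      rwa [Submodule.Quotient.mk_eq_zero] at h2
    · apply ih
      exact ((quotSMulTopEquiv I z).isWeaklyRegular_congr zs).1 h.2

end Vale.Agent.P202
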